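import Vale.Agent.P007.Fields

namespace Vale.Agent.P007

open NumberField Module

/-- An integral element of `ℚ` inside a number field is an integer. -/
lemma isInt_of_rat {K : Type*} [Field K] [CharZero K] {r : ℚ}
    (hr : IsIntegral ℤ ((r : ℚ) : K)) : ∃ k : ℤ, ((r : ℚ) : K) = k := by
  have h1 : IsIntegral ℤ r := by
    have hinj : Function.Injective (algebraMap ℚ K) := (algebraMap ℚ K).injective
    have : IsIntegral ℤ (algebraMap ℚ K r) := by simpa using hr
    exact (isIntegral_algebraMap_iff hinj).mp this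
  obtain ⟨k, hk⟩ := IsIntegrallyClosed.isIntegral_iff.mp h1
  refine ⟨k, ?_⟩
  rw [← hk]
  simp

/-- In a totally real field an algebraic integer all of whose real conjugates agree is a rational
integer. -/
lemma isInt_of_const {n : ℕ} {K : Type*} [Field K] [NumberField K] [IsTotallyReal K]
    (σ : Fin n ≃ (K →+* ℝ)) {x : K} (hx : IsIntegral ℤ x) (hc : ∀ a b, σ a x = σ b x) :
    ∃ k : ℤ, x = k := by
  -- every complex embedding is real
  have hreal : ∀ φ : K →+* ℂ, ∃ j, ∀ y, φ y = ((σ j y : ℝ) : ℂ) := by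
    intro φ
    have h1 : ComplexEmbedding.IsReal φ := IsTotallyReal.complexEmbedding_isReal φ
    refine ⟨σ.symm h1.embedding, fun y => ?_⟩
    rw [Equiv.apply_symm_apply]
    exact (h1.coe_embedding_apply y).symm
  have htr := trace_eq_sum_embeddings (K := ℚ) (L := K) ℂ (x := x)
  obtain ⟨φ0⟩ : Nonempty (K →+* ℂ) := inferInstance
  obtain ⟨j0, hj0⟩ := hreal φ0
  have h2 : ∀ φ : K →ₐ[ℚ] ℂ, φ x = ((σ j0 x : ℝ) : ℂ) := by
    intro φ
    obtain ⟨j, hj⟩ := hreal φ.toRingHom
    have := hj x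
    rw [hc j j0] at this
    exact this
  have hd : (finrank ℚ K : ℚ) ≠ 0 := by
    have : 0 < finrank ℚ K := finrank_pos
    exact_mod_cast this.ne'
  rw [Finset.sum_congr rfl (fun φ _ => h2 φ), Finset.sum_const, Finset.card_univ,
    AlgHom.card] at htr
  set r : ℚ := Algebra.trace ℚ K x / finrank ℚ K with hr
  have h3 : ((r : ℚ) : ℂ) = ((σ j0 x : ℝ) : ℂ) := by
    rw [hr]
    push_cast
    have h4 : ((Algebra.trace ℚ K x : ℚ) : ℂ) = (finrank ℚ K : ℂ) * ((σ j0 x : ℝ) : ℂ) := by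
      have := htr
      simpa using this
    have hd' : (finrank ℚ K : ℂ) ≠ 0 := by exact_mod_cast hd
    rw [h4, mul_div_cancel_left₀ _ hd']
  have h5 : ((r : ℚ) : ℝ) = σ j0 x := by exact_mod_cast h3
  have h6 : x = ((r : ℚ) : K) := by
    apply (σ j0).injective
    rw [← h5]
    simp
  rw [h6] at hx ⊢
  exact isInt_of_rat hx

lemma exists_integral_not_int (F : Type*) [Field F] [NumberField F] (h : 2 ≤ finrank ℚ F) :
    ∃ x : F, IsIntegral ℤ x ∧ ¬ ∃ k : ℤ, x = k := by
  by_contra hcon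
  push Not at hcon
  have h1 : ∀ y : F, ∃ r : ℚ, y = ((r : ℚ) : F) := by
    intro y
    have halg : IsAlgebraic ℤ y := by
      have : IsAlgebraic ℚ y := Algebra.IsAlgebraic.isAlgebraic y
      exact (IsFractionRing.isAlgebraic_iff ℤ ℚ F).mpr this
    obtain ⟨d, hd, hz⟩ := halg.exists_integral_multiple
    obtain ⟨k, hk⟩ := hcon _ hz
    refine ⟨(k : ℚ) / d, ?_⟩
    have hd' : (d : F) ≠ 0 := by exact_mod_cast hd
    rw [zsmul_eq_mul] at hk
    push_cast
    rw [← hk, mul_div_cancel_left₀ _ hd']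
  have h2 : finrank ℚ F ≤ 1 := by
    apply finrank_le_one (1 : F)
    intro w
    obtain ⟨r, hr⟩ := h1 w
    refine ⟨r, ?_⟩
    rw [hr, Algebra.smul_def]
    simp
  omega

end Vale.Agent.P007
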