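import Mathlib

/-!
Definitions for torus packets of totally real fields (P007).
-/

namespace Vale.Agent.P007

open MeasureTheory Topology Matrix Filter

/-- `SL_n(ℝ)`. -/
abbrev G (n : ℕ) : Type := Matrix.SpecialLinearGroup (Fin n) ℝ

/-- `SL_n(ℤ)`, as a subgroup of `SL_n(ℝ)`. -/
def Gam (n : ℕ) : Subgroup (G n) :=
  (Matrix.SpecialLinearGroup.map (n := Fin n) (Int.castRingHom ℝ)).range

/-- The space `X_n = SL_n(ℤ) \ SL_n(ℝ)` of right cosets `SL_n(ℤ) g`. -/
def X (n : ℕ) : Type := Quotient (QuotientGroup.rightRel (Gam n))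

/-- The coset `SL_n(ℤ) g`. -/
def mkX {n : ℕ} (g : G n) : X n := Quotient.mk (QuotientGroup.rightRel (Gam n)) g

/-- The quotient topology on `X_n`. -/
instance (n : ℕ) : TopologicalSpace (X n) :=
  inferInstanceAs (TopologicalSpace (Quotient (QuotientGroup.rightRel (Gam n))))

/-- The Borel sigma-algebra of `X_n`. -/
instance (n : ℕ) : MeasurableSpace (X n) := borel (X n)

instance (n : ℕ) : BorelSpace (X n) := ⟨rfl⟩

lemma rightRel_mul_right {n : ℕ} (g a b : G n) (hab : QuotientGroup.rightRel (Gam n) a b) :
    QuotientGroup.rightRel (Gam n) (a * g) (b * g) := by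
  rw [QuotientGroup.rightRel_apply] at hab ⊢
  simpa [mul_assoc] using hab

/-- Right translation `SL_n(ℤ) h ↦ SL_n(ℤ) h g` on `X_n`. -/
def act {n : ℕ} (g : G n) (x : X n) : X n :=
  Quotient.map' (s₁ := QuotientGroup.rightRel (Gam n)) (s₂ := QuotientGroup.rightRel (Gam n))
    (fun h : G n => h * g) (rightRel_mul_right g) x

/-- The diagonal entries `e^{u_1}, …, e^{u_{n-1}}, e^{-(u_1+⋯+u_{n-1})}`. -/
noncomputable def diagEntries (n : ℕ) (u : Fin (n - 1) → ℝ) (j : Fin n) : ℝ :=
  if h : (j : ℕ) < n - 1 then Real.exp (u ⟨j, h⟩) else Real.exp (-∑ i, u i)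

lemma prod_diagEntries (n : ℕ) (u : Fin (n - 1) → ℝ) : ∏ j, diagEntries n u j = 1 := by
  cases n with
  | zero => simp
  | succ m =>
    rw [Fin.prod_univ_castSucc]
    have h1 : ∀ i : Fin m, diagEntries (m + 1) u i.castSucc = Real.exp (u i) := by
      intro i
      have : ((i.castSucc : Fin (m + 1)) : ℕ) < m + 1 - 1 := by simp
      simp only [diagEntries, this, dite_true]
      congr 1
    have h2 : diagEntries (m + 1) u (Fin.last m) = Real.exp (-∑ i, u i) := by
      simp [diagEntries]
    rw [h2, Finset.prod_congr rfl (fun i _ => h1 i), ← Real.exp_sum, ← Real.exp_add]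
    simp

lemma det_diagonal_diagEntries (n : ℕ) (u : Fin (n - 1) → ℝ) :
    (Matrix.diagonal (diagEntries n u)).det = 1 := by
  rw [Matrix.det_diagonal, prod_diagEntries]

/-- The element `diag(e^{u_1}, …, e^{u_{n-1}}, e^{-(u_1+⋯+u_{n-1})})` of the diagonal group
`A_n`. -/
noncomputable def aOf (n : ℕ) (u : Fin (n - 1) → ℝ) : G n :=
  ⟨Matrix.diagonal (diagEntries n u), det_diagonal_diagEntries n u⟩

/-- The orbit `x A_n`. -/
def orbit {n : ℕ} (x : X n) : Set (X n) := Set.range (fun u : Fin (n - 1) → ℝ => act (aOf n u) x)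

lemma diagEntries_add (n : ℕ) (u v : Fin (n - 1) → ℝ) (j : Fin n) :
    diagEntries n (u + v) j = diagEntries n u j * diagEntries n v j := by
  unfold diagEntries
  split_ifs with h
  · simp [Real.exp_add]
  · rw [← Real.exp_add]; congr 1; simp [Finset.sum_add_distrib]; ring

lemma aOf_add (n : ℕ) (u v : Fin (n - 1) → ℝ) : aOf n (u + v) = aOf n u * aOf n v := by
  apply Subtype.ext
  change Matrix.diagonal (diagEntries n (u + v)) =
    Matrix.diagonal (diagEntries n u) * Matrix.diagonal (diagEntries n v)
  rw [Matrix.diagonal_mul_diagonal]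
  congr 1
  funext j
  exact diagEntries_add n u v j

lemma act_mk {n : ℕ} (g h : G n) : act g (mkX h) = mkX (h * g) := rfl

lemma act_act {n : ℕ} (g h : G n) (x : X n) : act g (act h x) = act (h * g) x := by
  induction x using Quotient.inductionOn with
  | h k =>
    change act g (act h (mkX k)) = act (h * g) (mkX k)
    simp [act_mk, mul_assoc]

lemma act_one {n : ℕ} (x : X n) : act (1 : G n) x = x := by
  induction x using Quotient.inductionOn with
  | h k =>
    change act 1 (mkX k) = (mkX k)
    simp [act_mk]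

lemma aOf_zero (n : ℕ) : aOf n 0 = 1 := by
  apply Subtype.ext
  simp only [aOf, Matrix.SpecialLinearGroup.coe_one]
  rw [← Matrix.diagonal_one]
  congr 1
  funext j
  simp [diagEntries]

lemma periods_zero {n : ℕ} (x : X n) : act (aOf n 0) x = x := by simp [aOf_zero, act_one]

lemma periods_add {n : ℕ} (x : X n) {u v : Fin (n - 1) → ℝ} (hu : act (aOf n u) x = x)
    (hv : act (aOf n v) x = x) : act (aOf n (u + v)) x = x := by
  rw [aOf_add, ← act_act, hu, hv]

lemma periods_neg {n : ℕ} (x : X n) {u : Fin (n - 1) → ℝ} (hu : act (aOf n u) x = x) :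
    act (aOf n (-u)) x = x := by
  have h : act (aOf n (-u)) (act (aOf n u) x) = x := by
    rw [act_act, ← aOf_add]; simp [aOf_zero, act_one]
  rwa [hu] at h

/-- The period group `{u : x a(u) = x}` of a point `x` of `X_n`. -/
noncomputable def periods {n : ℕ} (x : X n) : AddSubgroup (Fin (n - 1) → ℝ) where
  carrier := {u | act (aOf n u) x = x}
  zero_mem' := periods_zero x
  add_mem' := periods_add x
  neg_mem' := periods_neg x

/-- The lattice `ℤ^n g` in `ℝ^n` spanned by the rows of `g`. -/
def latticeSet {n : ℕ} (g : G n) : Set (Fin n → ℝ) :=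
  {v | ∃ k : Fin n → ℤ, v = Matrix.vecMul (fun i => (k i : ℝ)) (g : Matrix (Fin n) (Fin n) ℝ)}

/-- `O` is an order of the number field `K`: a subring consisting of algebraic integers
which spans `K` over `ℚ`. -/
structure IsOrder {K : Type*} [Field K] [NumberField K] (O : Subalgebra ℤ K) : Prop where
  integral : ∀ x ∈ O, IsIntegral ℤ x
  span_eq_top : Submodule.span ℚ (O : Set K) = ⊤

/-- `|Disc O| = |Disc K| [O_K : O]^2`. -/
noncomputable def absDisc {K : Type*} [Field K] [NumberField K] (O : Subalgebra ℤ K) : ℕ :=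
  (NumberField.discr K).natAbs *
    (O.toSubring.toAddSubgroup.relIndex (integralClosure ℤ K).toSubring.toAddSubgroup) ^ 2

/-- `I` is a fractional `O`-ideal: a finitely generated `O`-submodule of `K`. -/
def IsFracIdeal {K : Type*} [Field K] (O : Subalgebra ℤ K) (I : Submodule ℤ K) : Prop :=
  I.FG ∧ ∀ a ∈ O, ∀ x ∈ I, a * x ∈ I

/-- `I` is a proper invertible fractional `O`-ideal: its multiplier ring is exactly `O` and
`I J = O` for some fractional `O`-ideal `J`. -/
structure IsProperInvertible {K : Type*} [Field K] (O : Subalgebra ℤ K) (I : Submodule ℤ K) :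
    Prop where
  isFrac : IsFracIdeal O I
  proper : ∀ a : K, (∀ x ∈ I, a * x ∈ I) → a ∈ O
  inv : ∃ J : Submodule ℤ K, IsFracIdeal O J ∧ I * J = Subalgebra.toSubmodule O

/-- The packet of the order `O` with respect to the ordering `σ` of the `n` real embeddings:
the set of all orbits `Λ w A_n`, where `Λ = c σ(I)` (`c > 0`) is the covolume-one
multiple of the lattice `σ(I)` of a proper invertible fractional `O`-ideal `I`,
and `w` is a diagonal matrix of signs.  (Every `I` is allowed; replacing `I` by another ideal in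
its class does not change the set of orbits.) -/
def packet {n : ℕ} {K : Type*} [Field K] (O : Subalgebra ℤ K) (σ : Fin n ≃ (K →+* ℝ)) :
    Set (Set (X n)) :=
  {S | ∃ I : Submodule ℤ K, IsProperInvertible O I ∧
    ∃ (w : Fin n → ℤˣ) (c : ℝ) (g : G n), 0 < c ∧
      latticeSet g = {v | ∃ a ∈ I, v = fun j => c * σ j a * ((w j : ℤ) : ℝ)} ∧
      S = orbit (mkX g)}

/-- `p = (x, F)` parametrizes the orbit `S`: `S = x A_n`, and `F` is a fundamental domain of the
period group of `x` acting by translations on the parameter space `ℝ^{n-1}`. -/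
def IsParam {n : ℕ} (S : Set (X n)) (p : X n × Set (Fin (n - 1) → ℝ)) : Prop :=
  S = orbit p.1 ∧ IsAddFundamentalDomain (periods p.1) p.2 volume

/-- The image of Haar measure `du_1 ⋯ du_{n-1}` on `F` under `u ↦ x a(u)`. -/
noncomputable def paramMeasure {n : ℕ} (p : X n × Set (Fin (n - 1) → ℝ)) : Measure (X n) :=
  ((volume : Measure (Fin (n - 1) → ℝ)).restrict p.2).map (fun u => act (aOf n u) p.1)

open Classical in
/-- The natural (unnormalised) measure on an orbit `S = x A_n`: the image of Haar measure
`du_1 ⋯ du_{n-1}` on a fundamental domain of the period group of `x` under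
`u ↦ x a(u)`.  Its total mass is `vol(S)`, and it equals `vol(S) ν_S` with `ν_S` the invariant
probability on `S`. -/
noncomputable def orbitMeasure {n : ℕ} (S : Set (X n)) : Measure (X n) :=
  if h : ∃ p, IsParam S p then paramMeasure h.choose else 0

/-- The sum over the packet of the measures `vol(S) ν_S`. -/
noncomputable def packetSum {n : ℕ} {K : Type*} [Field K] (O : Subalgebra ℤ K)
    (σ : Fin n ≃ (K →+* ℝ)) : Measure (X n) :=
  Measure.sum (fun S : packet O σ => orbitMeasure (S : Set (X n)))

/-- The packet measure `μ_{O,σ} = (∑ vol(S) ν_S) / (∑ vol(S))`. -/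
noncomputable def packetMeasure {n : ℕ} {K : Type*} [Field K] (O : Subalgebra ℤ K)
    (σ : Fin n ≃ (K →+* ℝ)) : Measure (X n) :=
  (packetSum O σ Set.univ)⁻¹ • packetSum O σ

/-- `μ` is the packet measure `μ_{O,σ}`, or some other Borel measure giving no mass to the
complement of the union of the orbits of the packet. -/
def LivesOnPacket {n : ℕ} {K : Type} [Field K] (O : Subalgebra ℤ K) (σ : Fin n ≃ (K →+* ℝ))
    (μ : Measure (X n)) : Prop :=
  μ = packetMeasure O σ ∨ μ (⋃₀ packet O σ)ᶜ = 0

/-- `m` is an `SL_n(ℝ)`-invariant Borel probability measure on `X_n`. -/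
structure IsInvariantProb {n : ℕ} (m : Measure (X n)) : Prop where
  prob : IsProbabilityMeasure m
  inv : ∀ g : G n, m.map (act g) = m

/-- `μ_i → m` vaguely: `∫ f dμ_i → ∫ f dm` for all continuous compactly supported `f`.
(Weak convergence in the sense of the problem asks in addition that no mass escapes.) -/
def VagueTendsto {n : ℕ} (μ : ℕ → Measure (X n)) (m : Measure (X n)) : Prop :=
  ∀ f : X n → ℝ, Continuous f → HasCompactSupport f →
    Tendsto (fun i => ∫ x, f x ∂(μ i)) atTop (𝓝 (∫ x, f x ∂m))

/-- An order `O` in a totally real number field `K` of degree `n`. -/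
structure RealOrder (n : ℕ) where
  K : Type
  [field : Field K]
  [numberField : NumberField K]
  totallyReal : NumberField.IsTotallyReal K
  degree : Module.finrank ℚ K = n
  O : Subalgebra ℤ K
  isOrder : IsOrder O

attribute [instance] RealOrder.field RealOrder.numberField RealOrder.totallyReal

/-- An ordering of the `n` real embeddings. -/
abbrev RealOrder.Ordering {n : ℕ} (R : RealOrder n) : Type := Fin n ≃ (R.K →+* ℝ)

/-- The absolute value of the discriminant of the order. -/
noncomputable def RealOrder.disc {n : ℕ} (R : RealOrder n) : ℕ := absDisc R.O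

/-- The order is the maximal order `O_K`. -/
def RealOrder.IsMaximalOrder {n : ℕ} (R : RealOrder n) : Prop := R.O = integralClosure ℤ R.K

/-- `μ` is the packet measure `μ_{O,σ}`, or some other Borel measure giving no mass to the
complement of the union of the orbits of the packet. -/
def RealOrder.LivesOn {n : ℕ} (R : RealOrder n) (σ : R.Ordering) (μ : Measure (X n)) : Prop :=
  LivesOnPacket R.O σ μ

/-- The measures `μ_i`, living on the packets of `(s_i, σ_i)`, have no subsequence converging
(against `C_c`) to an invariant probability measure `m` on `X_n`; this for all orderings `σ_i`,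
all such `μ_i` and all `m`. -/
def NoSubsequenceConverges {n : ℕ} (s : ℕ → RealOrder n) : Prop :=
  ∀ (σ : ∀ i, (s i).Ordering) (μ : ℕ → Measure (X n)), (∀ i, (s i).LivesOn (σ i) (μ i)) →
    ∀ m : Measure (X n), IsInvariantProb m →
      ∀ φ : ℕ → ℕ, StrictMono φ → ¬ VagueTendsto (fun i => μ (φ i)) m

/-- Some measures `μ_i` living on the packets of `(s_i, σ_i)`, for some orderings `σ_i`, converge
to some invariant probability measure `m` on `X_n`. -/
def SomeConverges {n : ℕ} (s : ℕ → RealOrder n) : Prop :=
  ∃ (σ : ∀ i, (s i).Ordering) (μ : ℕ → Measure (X n)), (∀ i, (s i).LivesOn (σ i) (μ i)) ∧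
    ∃ m : Measure (X n), IsInvariantProb m ∧ VagueTendsto μ m

/-- For every `B`, all but finitely many of the orders `s_i` contain no element, other than
rational integers, all of whose real conjugates have absolute value at most `B`. -/
def NoSmallElements {n : ℕ} (s : ℕ → RealOrder n) : Prop :=
  ∀ B : ℝ, ∀ᶠ i in atTop, ∀ x ∈ (s i).O, (∀ τ : (s i).K →+* ℝ, |τ x| ≤ B) → ∃ k : ℤ, x = k

end Vale.Agent.P007
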