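import Mathlib

namespace Vale.Agent.P007

open NumberField Module

/-- In a cyclic group of even order `k * (2 * s)`, the subgroup generated by `g ^ k` contains all
involutions. -/
lemma exists_subgroup_index {Γ : Type*} [Group Γ] [Finite Γ] [IsCyclic Γ] {k s : ℕ}
    (hk : 0 < k) (hcard : Nat.card Γ = k * (2 * s)) :
    ∃ H : Subgroup Γ, Nat.card H = 2 * s ∧ ∀ c : Γ, c * c = 1 → c ∈ H := by
  obtain ⟨g, hg⟩ := IsCyclic.exists_generator (α := Γ)
  have hord : orderOf g = k * (2 * s) := by
    rw [← hcard]; exact orderOf_eq_card_of_forall_mem_zpowers hg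
  have hpos : 0 < k * (2 * s) := by rw [← hord]; exact orderOf_pos g
  refine ⟨Subgroup.zpowers (g ^ k), ?_, ?_⟩
  · rw [Nat.card_zpowers, orderOf_pow' g hk.ne', hord, Nat.gcd_eq_right (dvd_mul_right k _)]
    exact Nat.mul_div_cancel_left _ hk
  · intro c hc
    obtain ⟨j, rfl⟩ := hg c
    simp only at hc ⊢
    rw [← zpow_add, ← orderOf_dvd_iff_zpow_eq_one, hord] at hc
    have h1 : (k : ℤ) ∣ j := by
      obtain ⟨t, ht⟩ := hc
      refine ⟨s * t, ?_⟩
      push_cast at ht
      linarith
    obtain ⟨t, rfl⟩ := h1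
    refine ⟨t, ?_⟩
    simp only
    rw [← zpow_natCast g k, ← zpow_mul]

lemma fixedField_isTotallyReal {L : Type} [Field L] [NumberField L] [IsGalois ℚ L]
    (H : Subgroup Gal(L/ℚ)) (hinv : ∀ c : Gal(L/ℚ), c * c = 1 → c ∈ H) :
    IsTotallyReal (IntermediateField.fixedField H) := by
  have h1 : ∀ φ : L →+* ℂ, ∀ x ∈ IntermediateField.fixedField H, star (φ x) = φ x := by
    intro φ x hx
    obtain ⟨σ, hσ⟩ := ComplexEmbedding.exists_comp_symm_eq_of_comp_eq (k := ℚ) φ
      (ComplexEmbedding.conjugate φ) (by ext1 y; simp)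
    have h2 : ∀ y, φ (σ.symm y) = star (φ y) := fun y => RingHom.congr_fun hσ y
    have h3 : σ.symm * σ.symm = 1 := by
      ext y
      apply φ.injective
      change φ (σ.symm (σ.symm y)) = φ y
      rw [h2, h2, star_star]
    have h4 := hinv σ.symm h3
    have h5 : σ.symm x = x := hx ⟨σ.symm, h4⟩
    rw [← h2, h5]
  rw [isTotallyReal_iff]
  intro v
  rw [InfinitePlace.isReal_iff, ComplexEmbedding.isReal_iff]
  ext x
  have h6 := h1 (ComplexEmbedding.lift L v.embedding) x x.2
  rw [ComplexEmbedding.conjugate_coe_eq]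
  have h7 : ComplexEmbedding.lift L v.embedding (x : L) = v.embedding x := by
    have := ComplexEmbedding.lift_algebraMap_apply L v.embedding x
    exact this
  rw [h7] at h6
  exact h6

/-- Totally real abelian fields of given degree with discriminant a power of a large prime. -/
lemma exists_cyclic_totallyReal {k : ℕ} (hk : 0 < k) (N : ℕ) :
    ∃ (q : ℕ) (E : Type) (_ : Field E) (_ : NumberField E), q.Prime ∧ N < q ∧
      IsGalois ℚ E ∧ IsTotallyReal E ∧ finrank ℚ E = k ∧ ∃ j : ℕ, discr E ∣ (q : ℤ) ^ j := by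
  obtain ⟨q, hq, hNq, hmod⟩ := Nat.exists_prime_gt_modEq_one (k := 2 * k) (N + 2) (by omega)
  have hfact : Fact q.Prime := ⟨hq⟩
  have hq2 : 2 < q := by omega
  have hdvd : 2 * k ∣ q - 1 := (Nat.modEq_iff_dvd' hq.one_lt.le).mp hmod.symm
  obtain ⟨s, hs⟩ := hdvd
  have aux : ∀ (L : Type) [Field L] [NumberField L] [IsCyclotomicExtension {q} ℚ L],
      ∃ (E : Type) (_ : Field E) (_ : NumberField E),
      IsGalois ℚ E ∧ IsTotallyReal E ∧ finrank ℚ E = k ∧ ∃ j : ℕ, discr E ∣ (q : ℤ) ^ j := by
    intro L _ _ _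
    have hgal : IsGalois ℚ L := IsCyclotomicExtension.isGalois {q} ℚ L
    have e := IsCyclotomicExtension.Rat.galEquivZMod q L
    have hcyc : IsCyclic Gal(L/ℚ) := isCyclic_of_surjective e.symm e.symm.surjective
    have hcard : Nat.card Gal(L/ℚ) = k * (2 * s) := by
      rw [IsGalois.card_aut_eq_finrank, IsCyclotomicExtension.Rat.finrank q L,
        Nat.totient_prime hq, hs]
      ring
    obtain ⟨H, hH, hinv⟩ := exists_subgroup_index hk hcard
    have hspos : 0 < 2 * s := by
      rw [← hH]; exact Nat.card_pos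
    have hcomm : ∀ a b : Gal(L/ℚ), a * b = b * a := by
      intro a b
      apply e.injective
      rw [map_mul, map_mul, mul_comm]
    have hnorm : H.Normal := ⟨fun a ha b => by rw [hcomm b a, mul_assoc]; simpa using ha⟩
    have hgalE : IsGalois ℚ (IntermediateField.fixedField H) :=
      IsGalois.of_fixedField_normal_subgroup H
    refine ⟨IntermediateField.fixedField H, inferInstance, inferInstance, ?_, ?_, ?_, ?_⟩
    · exact hgalE
    · exact fixedField_isTotallyReal H hinv
    · have h1 := IntermediateField.finrank_fixedField_eq_card H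
      have h2 : finrank ℚ (IntermediateField.fixedField H) *
          finrank (IntermediateField.fixedField H) L = finrank ℚ L := finrank_mul_finrank ..
      rw [h1, hH, ← IsGalois.card_aut_eq_finrank ℚ L, hcard] at h2
      exact Nat.eq_of_mul_eq_mul_right hspos h2
    · refine ⟨q - 2, ?_⟩
      have h1 : discr (IntermediateField.fixedField H) ∣ discr L := discr_dvd_discr _ _
      rw [IsCyclotomicExtension.Rat.discr_prime q L] at h1
      refine h1.trans ?_
      rcases neg_one_pow_eq_or ℤ ((q - 1) / 2) with h | h <;> rw [h] <;> simp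
  have hz : NeZero ((q : ℕ) : ℚ) := ⟨by exact_mod_cast hq.ne_zero⟩
  have hz' : NeZero q := ⟨hq.ne_zero⟩
  have hnf : NumberField (CyclotomicField q ℚ) := inferInstance
  have hc : @IsCyclotomicExtension {q} ℚ (CyclotomicField q ℚ) _ _
      (DivisionRing.toRatAlgebra) := by
    have h := CyclotomicField.isCyclotomicExtension q ℚ
    have he : (CyclotomicField.algebra q ℚ : Algebra ℚ (CyclotomicField q ℚ)) =
      DivisionRing.toRatAlgebra := Subsingleton.elim _ _
    rw [← he]
    exact h
  obtain ⟨E, h1, h2, h3⟩ := @aux (CyclotomicField q ℚ) _ hnf hc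
  exact ⟨q, E, h1, h2, hq, by omega, h3⟩

/-- Compositum of two totally real fields with coprime discriminants, one of them Galois. -/
lemma exists_compositum (F E : Type) [Field F] [NumberField F] [Field E] [NumberField E]
    [IsGalois ℚ E] [IsTotallyReal F] [IsTotallyReal E] (hcop : IsCoprime (discr E) (discr F)) :
    ∃ (K : Type) (_ : Field K) (_ : NumberField K), IsTotallyReal K ∧
      finrank ℚ K = finrank ℚ F * finrank ℚ E ∧ discr E ∣ discr K ∧ Nonempty (F →+* K) := by
  let Ω := AlgebraicClosure ℚ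
  let f : F →ₐ[ℚ] Ω := IsAlgClosed.lift
  let e : E →ₐ[ℚ] Ω := IsAlgClosed.lift
  let F0 : IntermediateField ℚ Ω := f.fieldRange
  let E0 : IntermediateField ℚ Ω := e.fieldRange
  have hfF : FiniteDimensional ℚ F0 :=
    (AlgEquiv.ofInjectiveField f).toLinearEquiv.finiteDimensional
  have hfE : FiniteDimensional ℚ E0 :=
    (AlgEquiv.ofInjectiveField e).toLinearEquiv.finiteDimensional
  let K : IntermediateField ℚ Ω := F0 ⊔ E0
  have hK : NumberField K := by
    have : FiniteDimensional ℚ K := IntermediateField.finiteDimensional_sup F0 E0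
    exact { to_charZero := inferInstance, to_finiteDimensional := inferInstance }
  -- the two fields inside `K`
  let f' : F →ₐ[ℚ] K := f.codRestrict K.toSubalgebra (fun x =>
    (le_sup_left : F0 ≤ K) ⟨x, rfl⟩)
  let e' : E →ₐ[ℚ] K := e.codRestrict K.toSubalgebra (fun x =>
    (le_sup_right : E0 ≤ K) ⟨x, rfl⟩)
  let K1 : IntermediateField ℚ K := e'.fieldRange
  let K2 : IntermediateField ℚ K := f'.fieldRange
  have eE : E ≃ₐ[ℚ] K1 := AlgEquiv.ofInjectiveField e'
  have eF : F ≃ₐ[ℚ] K2 := AlgEquiv.ofInjectiveField f'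
  have hgal : IsGalois ℚ K1 := IsGalois.of_algEquiv eE
  have hd1 : discr K1 = discr E := (discr_eq_discr_of_algEquiv E eE).symm
  have hd2 : discr K2 = discr F := (discr_eq_discr_of_algEquiv F eF).symm
  have hlin : K1.LinearDisjoint K2 :=
    linearDisjoint_of_isGalois_isCoprime_discr K K1 K2 (by rw [hd1, hd2]; exact hcop)
  have htop : K2 ⊔ K1 = ⊤ := by
    rw [eq_top_iff]
    intro x _
    have h1 : F0.toSubfield ⊔ E0.toSubfield ≤
        Subfield.map (algebraMap K Ω) (K2 ⊔ K1).toSubfield := by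
      rw [sup_le_iff]
      constructor
      · rintro _ ⟨z, rfl⟩
        exact ⟨f' z, (le_sup_left : K2 ≤ K2 ⊔ K1) ⟨z, rfl⟩, rfl⟩
      · rintro _ ⟨z, rfl⟩
        exact ⟨e' z, (le_sup_right : K1 ≤ K2 ⊔ K1) ⟨z, rfl⟩, rfl⟩
    have h2 : (x : Ω) ∈ F0.toSubfield ⊔ E0.toSubfield := by
      rw [← IntermediateField.sup_toSubfield]
      exact x.2
    obtain ⟨y, hy, hyx⟩ := h1 h2
    have h3 : y = x := Subtype.ext hyx
    rw [← h3]
    exact hy
  have hfin := hlin.finrank_sup
  rw [sup_comm, htop] at hfin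
  refine ⟨K, inferInstance, hK, ?_, ?_, ?_, ⟨f'.toRingHom⟩⟩
  · have h1 : IsTotallyReal K1.toSubfield := IsTotallyReal.ofRingEquiv eE.toRingEquiv
    have h2 : IsTotallyReal K2.toSubfield := IsTotallyReal.ofRingEquiv eF.toRingEquiv
    have h3 : K2.toSubfield ⊔ K1.toSubfield = ⊤ := by
      rw [← IntermediateField.sup_toSubfield, htop, IntermediateField.top_toSubfield]
    rw [← isTotallyReal_top_iff, ← h3]
    infer_instance
  · rw [← IntermediateField.finrank_top', hfin, eE.toLinearEquiv.finrank_eq,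
      eF.toLinearEquiv.finrank_eq, mul_comm]
  · rw [← hd1]; exact discr_dvd_discr _ _

end Vale.Agent.P007
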