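import Vale.Agent.P007.Packet

namespace Vale.Agent.P007

open MeasureTheory Topology Matrix Filter Polynomial

variable {n : ℕ}

lemma charpoly_of_stable {d : Fin n → ℝ} {g : G n} {N : Matrix (Fin n) (Fin n) ℤ}
    (hN : (g : Matrix (Fin n) (Fin n) ℝ) * Matrix.diagonal d =
      N.map (fun k : ℤ => (k : ℝ)) * (g : Matrix (Fin n) (Fin n) ℝ)) :
    N.charpoly.map (Int.castRingHom ℝ) = ∏ j, (Polynomial.X - C (d j)) := by
  have h1 : (g : Matrix (Fin n) (Fin n) ℝ) * ((g⁻¹ : G n) : Matrix (Fin n) (Fin n) ℝ) = 1 := by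
    rw [← Matrix.SpecialLinearGroup.coe_mul]; simp
  have h2 : ((g⁻¹ : G n) : Matrix (Fin n) (Fin n) ℝ) * (g : Matrix (Fin n) (Fin n) ℝ) = 1 := by
    rw [← Matrix.SpecialLinearGroup.coe_mul]; simp
  rw [← Matrix.charpoly_map]
  have h3 : N.map (Int.castRingHom ℝ) = N.map (fun k : ℤ => (k : ℝ)) := rfl
  have h4 : N.map (fun k : ℤ => (k : ℝ)) =
      (g : Matrix (Fin n) (Fin n) ℝ) * Matrix.diagonal d *
        ((g⁻¹ : G n) : Matrix (Fin n) (Fin n) ℝ) := by
    rw [hN, mul_assoc, h1, mul_one]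
  rw [h3, h4, Matrix.charpoly_mul_comm, ← mul_assoc, h2, one_mul, Matrix.charpoly_diagonal]

lemma finite_stable (B : ℝ) :
    {d : Fin n → ℝ | (∀ j, |d j| ≤ B) ∧ (stableSet (Matrix.diagonal d)).Nonempty}.Finite := by
  classical
  set M : ℝ := max B 1 ^ n * n.choose (n / 2) with hM
  have hfin : (Set.Icc (-⌈M⌉) ⌈M⌉ : Set ℤ).Finite := Set.finite_Icc _ _
  have h1 := Polynomial.bUnion_roots_finite (Int.castRingHom ℝ) n hfin
  refine Set.Finite.subset (Set.Finite.pi' (fun _ : Fin n => h1)) ?_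
  rintro d ⟨hdB, g, N, hN⟩ j
  have hch := charpoly_of_stable hN
  simp only [Set.mem_iUnion]
  have hne : (∏ j, (Polynomial.X - C (d j)) : ℝ[X]) ≠ 0 :=
    Finset.prod_ne_zero_iff.mpr fun i _ => Polynomial.X_sub_C_ne_zero _
  have hroots : (∏ j, (Polynomial.X - C (d j)) : ℝ[X]).roots = Multiset.map d Finset.univ.val := by
    rw [Polynomial.roots_prod _ _ hne]
    simp
  refine ⟨N.charpoly, ⟨?_, ?_⟩, ?_⟩
  · rw [Matrix.charpoly_natDegree_eq_dim]; simp
  · intro i
    have hb := Polynomial.coeff_bdd_of_roots_le (B := B) (d := n) (RingHom.id ℝ)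
      (p := ∏ j, (Polynomial.X - C (d j))) (Polynomial.monic_prod_of_monic _ _ fun i _ => monic_X_sub_C _)
      (by
        rw [Polynomial.map_id]
        exact Polynomial.Splits.prod fun i _ => Polynomial.Splits.X_sub_C _)
      (by
        rw [Polynomial.natDegree_prod_of_monic _ _ fun i _ => monic_X_sub_C _]
        simp)
      (by
        intro z hz
        rw [Polynomial.map_id, hroots] at hz
        obtain ⟨k, _, rfl⟩ := Multiset.mem_map.mp hz
        simpa using hdB k) i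
    rw [Polynomial.map_id, ← hch, Polynomial.coeff_map] at hb
    have hb' : |((N.charpoly.coeff i : ℤ) : ℝ)| ≤ M := by simpa using hb
    rw [abs_le] at hb'
    have h5 := Int.le_ceil M
    constructor
    · have : -((⌈M⌉ : ℤ) : ℝ) ≤ ((N.charpoly.coeff i : ℤ) : ℝ) := by linarith [hb'.1]
      exact_mod_cast this
    · have : ((N.charpoly.coeff i : ℤ) : ℝ) ≤ ((⌈M⌉ : ℤ) : ℝ) := by linarith [hb'.2]
      exact_mod_cast this
  · rw [hch]
    simp only [Finset.mem_coe, Multiset.mem_toFinset]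
    rw [hroots]
    exact Multiset.mem_map.mpr ⟨j, Finset.mem_univ_val j, rfl⟩

/-- General obstruction. -/
theorem not_vague_of_bounded (hn : 2 ≤ n) {m : Measure (X n)} (hm : IsInvariantProb m)
    {μ : ℕ → Measure (X n)} {B : ℝ}
    (hfreq : ∃ᶠ i in atTop, ∃ d : Fin n → ℝ, (∀ j, |d j| ≤ B) ∧ (∃ a b, d a ≠ d b) ∧
      μ i (stableX (Matrix.diagonal d))ᶜ = 0) :
    ¬ VagueTendsto μ m := by
  classical
  -- either infinitely many `μ i` vanish, or the pattern can be taken constant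
  by_cases hz : ∃ᶠ i in atTop, μ i Set.univ = 0
  · have ha : (fun j : Fin n => ((j : ℕ) : ℝ)) ⟨0, by omega⟩ ≠
        (fun j : Fin n => ((j : ℕ) : ℝ)) ⟨1, by omega⟩ := by simp
    exact not_vague_of_frequently (d := fun j : Fin n => ((j : ℕ) : ℝ)) hm ha
      (hz.mono fun i hi => measure_mono_null (Set.subset_univ _) hi)
  · have hz' : ∀ᶠ i in atTop, μ i Set.univ ≠ 0 := by
      simpa [Filter.not_frequently] using hz
    set T := {d : Fin n → ℝ | (∀ j, |d j| ≤ B) ∧ (stableSet (Matrix.diagonal d)).Nonempty}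
    have hT : T.Finite := finite_stable B
    have h2 : ∃ᶠ i in atTop, ∃ d ∈ T, (∃ a b, d a ≠ d b) ∧
        μ i (stableX (Matrix.diagonal d))ᶜ = 0 := by
      refine (hfreq.and_eventually hz').mono ?_
      rintro i ⟨⟨d, hdB, hab, hμ⟩, hne⟩
      refine ⟨d, ⟨hdB, ?_⟩, hab, hμ⟩
      by_contra hemp
      rw [Set.not_nonempty_iff_eq_empty] at hemp
      apply hne
      rw [stableX, hemp, Set.image_empty, Set.compl_empty] at hμ
      exact hμ
    have h3 : ∃ d ∈ T, ∃ᶠ i in atTop, (∃ a b, d a ≠ d b) ∧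
        μ i (stableX (Matrix.diagonal d))ᶜ = 0 := by
      by_contra hcon
      push Not at hcon
      apply h2
      have h4 := (hT.eventually_all (l := (atTop : Filter ℕ))
        (p := fun d i => ¬ ((∃ a b, d a ≠ d b) ∧
          μ i (stableX (Matrix.diagonal d))ᶜ = 0))).mpr
        (fun d hd => by simpa [Filter.not_frequently] using hcon d hd)
      refine h4.mono fun i hi => ?_
      rintro ⟨d, hd, hd2⟩
      exact hi d hd hd2
    obtain ⟨d, -, hd⟩ := h3
    obtain ⟨i, ⟨a, b, hab⟩, -⟩ := hd.exists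
    exact not_vague_of_frequently hm hab (hd.mono fun i hi => hi.2)

end Vale.Agent.P007
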