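import Vale.Agent.P007.Finite
import Vale.Agent.P007.Arith

namespace Vale.Agent.P007

open MeasureTheory Topology Matrix Filter NumberField Module

lemma LivesOnPacket.compl_stableX {n : ℕ} {K : Type} [Field K] {O : Subalgebra ℤ K}
    {σ : Fin n ≃ (K →+* ℝ)} {μ : Measure (X n)} (h : LivesOnPacket O σ μ) {β : K} (hβ : β ∈ O) :
    μ (stableX (Matrix.diagonal (fun j => σ j β)))ᶜ = 0 := by
  rcases h with h | h
  · rw [h]; exact packetMeasure_compl_stableX O σ hβ
  · exact carried_compl_stableX h hβ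

theorem necessary_condition {n : ℕ} (hn : 2 ≤ n) (K : ℕ → Type) [∀ i, Field (K i)]
    [∀ i, NumberField (K i)] [∀ i, IsTotallyReal (K i)] (O : ∀ i, Subalgebra ℤ (K i))
    (hO : ∀ i, IsOrder (O i)) (σ : ∀ i, Fin n ≃ (K i →+* ℝ)) (m : Measure (X n))
    (hm : IsInvariantProb m) (μ : ℕ → Measure (X n))
    (hμ : ∀ i, LivesOnPacket (O i) (σ i) (μ i)) (hconv : VagueTendsto μ m) (B : ℝ) :
    ∀ᶠ i in atTop, ∀ x ∈ O i, (∀ j, |σ i j x| ≤ B) → ∃ k : ℤ, x = k := by
  by_contra hcon
  have hfreq : ∃ᶠ i in atTop, ∃ d : Fin n → ℝ, (∀ j, |d j| ≤ B) ∧ (∃ a b, d a ≠ d b) ∧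
      μ i (stableX (Matrix.diagonal d))ᶜ = 0 := by
    have h1 : ∃ᶠ i in atTop, ¬ (∀ x ∈ O i, (∀ j, |σ i j x| ≤ B) → ∃ k : ℤ, x = k) :=
      Filter.not_eventually.mp hcon
    refine h1.mono fun i hi => ?_
    push Not at hi
    obtain ⟨x, hxO, hxB, hx⟩ := hi
    refine ⟨fun j => σ i j x, hxB, ?_, (hμ i).compl_stableX hxO⟩
    by_contra hc
    push Not at hc
    obtain ⟨k, hk⟩ := isInt_of_const (σ i) ((hO i).integral x hxO) hc
    exact hx k hk
  exact not_vague_of_bounded hn hm hfreq hconv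

lemma isOrder_integralClosure (K : Type) [Field K] [NumberField K] :
    IsOrder (integralClosure ℤ K) := by
  refine ⟨fun x hx => hx, ?_⟩
  rw [eq_top_iff]
  intro y _
  have halg : IsAlgebraic ℤ y := by
    have : IsAlgebraic ℚ y := Algebra.IsAlgebraic.isAlgebraic y
    exact (IsFractionRing.isAlgebraic_iff ℤ ℚ K).mpr this
  obtain ⟨d, hd, hz⟩ := halg.exists_integral_multiple
  have hd' : (d : ℚ) ≠ 0 := by exact_mod_cast hd
  have h1 : y = ((d : ℚ)⁻¹) • (d • y) := by
    rw [zsmul_eq_mul, Algebra.smul_def, map_inv₀]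
    have : (d : K) ≠ 0 := by exact_mod_cast hd
    simp only [map_intCast]
    rw [← mul_assoc, inv_mul_cancel₀ this, one_mul]
  rw [h1]
  exact Submodule.smul_mem _ _ (Submodule.subset_span hz)

lemma absDisc_integralClosure (K : Type) [Field K] [NumberField K] :
    absDisc (integralClosure ℤ K) = (discr K).natAbs := by
  unfold absDisc
  rw [AddSubgroup.relIndex_self]
  simp

lemma nonempty_ordering {n : ℕ} (K : Type) [Field K] [NumberField K] [IsTotallyReal K]
    (h : finrank ℚ K = n) : Nonempty (Fin n ≃ (K →+* ℝ)) := by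
  have h1 : Function.Bijective (fun φ : K →+* ℝ => (Complex.ofRealHom.comp φ : K →+* ℂ)) := by
    constructor
    · intro φ ψ hφψ
      ext x
      have := RingHom.congr_fun hφψ x
      simpa using this
    · intro φ
      have h1 : ComplexEmbedding.IsReal φ := IsTotallyReal.complexEmbedding_isReal φ
      refine ⟨h1.embedding, ?_⟩
      ext x
      exact h1.coe_embedding_apply x
  have e := Equiv.ofBijective _ h1
  have h2 : Fintype.card (K →+* ℂ) = n := by rw [Embeddings.card, h]
  exact ⟨(e.trans (Fintype.equivFinOfCardEq h2)).symm⟩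

theorem composite_counterexample (n : ℕ) (hn : 4 ≤ n) (hcomp : ¬ n.Prime) :
    ∃ (K : ℕ → Type) (_ : ∀ i, Field (K i)) (_ : ∀ i, NumberField (K i)),
      (∀ i, IsTotallyReal (K i)) ∧ (∀ i, finrank ℚ (K i) = n) ∧
      (∀ i, Nonempty (Fin n ≃ (K i →+* ℝ))) ∧
      (∀ i, IsOrder (integralClosure ℤ (K i))) ∧
      Tendsto (fun i => absDisc (integralClosure ℤ (K i))) atTop atTop ∧
      ∀ (σ : ∀ i, Fin n ≃ (K i →+* ℝ)) (m : Measure (X n)), IsInvariantProb m →
        ∀ μ : ℕ → Measure (X n),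
          (∀ i, LivesOnPacket (integralClosure ℤ (K i)) (σ i) (μ i)) →
          ∀ φ : ℕ → ℕ, StrictMono φ → ¬ VagueTendsto (fun i => μ (φ i)) m := by
  -- factor `n = m * k`
  obtain ⟨a, b, ha, hb, hab⟩ : ∃ a b : ℕ, 2 ≤ a ∧ 2 ≤ b ∧ a * b = n := by
    obtain ⟨a, hdvd, ha1, han⟩ := Nat.exists_dvd_of_not_prime2 (by omega) hcomp
    obtain ⟨b, rfl⟩ := hdvd
    refine ⟨a, b, ha1, ?_, rfl⟩
    by_contra hb
    have : b = 0 ∨ b = 1 := by omega
    rcases this with rfl | rfl <;> omega
  obtain ⟨q0, F, instF, instFN, -, -, -, hFr, hFd, -⟩ :=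
    exists_cyclic_totallyReal (k := a) (by omega) 0
  obtain ⟨x0, hx0, hx0n⟩ := exists_integral_not_int F (by omega)
  have hstep : ∀ i : ℕ, ∃ (K : Type) (_ : Field K) (_ : NumberField K), IsTotallyReal K ∧
      finrank ℚ K = n ∧ i ≤ (discr K).natAbs ∧ Nonempty (F →+* K) := by
    intro i
    obtain ⟨q, E, instE, instEN, hq, hNq, hgal, hEr, hEd, j, hj⟩ :=
      exists_cyclic_totallyReal (k := b) (by omega) (max i (discr F).natAbs)
    have hcop : IsCoprime (discr E) (discr F) := by
      have h1 : IsCoprime ((q : ℤ) ^ j) (discr F) := by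
        apply IsCoprime.pow_left
        rw [Int.isCoprime_iff_gcd_eq_one]
        have h2 : Nat.Coprime q (discr F).natAbs := by
          rw [Nat.Prime.coprime_iff_not_dvd hq]
          intro hdvd
          have h3 := Nat.le_of_dvd (Int.natAbs_pos.mpr (discr_ne_zero F)) hdvd
          have h4 := le_max_right i (discr F).natAbs
          omega
        rw [Int.gcd_def]
        simpa using h2
      exact h1.of_isCoprime_of_dvd_left hj
    obtain ⟨K, instK, instKN, hKr, hKd, hdvd, hFK⟩ := exists_compositum F E hcop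
    refine ⟨K, instK, instKN, hKr, ?_, ?_, hFK⟩
    · rw [hKd, hFd, hEd, hab]
    · -- `q` divides `discr E`
      have h1 : 2 < |discr E| := abs_discr_gt_two (by omega)
      have h2 : (discr E).natAbs ∣ q ^ j := by
        have := Int.natAbs_dvd_natAbs.mpr hj
        simpa [Int.natAbs_pow] using this
      obtain ⟨t, -, ht⟩ := (Nat.dvd_prime_pow hq).mp h2
      have h3 : t ≠ 0 := by
        rintro rfl
        rw [pow_zero] at ht
        have : |discr E| = 1 := by rw [Int.abs_eq_natAbs, ht]; rfl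
        omega
      have h4 : q ∣ (discr K).natAbs := by
        refine dvd_trans ?_ (Int.natAbs_dvd_natAbs.mpr hdvd)
        rw [ht]
        exact dvd_pow_self q h3
      have h5 := Nat.le_of_dvd (Int.natAbs_pos.mpr (discr_ne_zero K)) h4
      have h6 := le_max_left i (discr F).natAbs
      omega
  choose K instK instKN hKr hKd hKi hFK using hstep
  refine ⟨K, instK, instKN, hKr, hKd, fun i => nonempty_ordering (K i) (hKd i),
    fun i => isOrder_integralClosure (K i), ?_, ?_⟩
  · refine tendsto_atTop_mono (fun i => ?_) tendsto_id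
    rw [absDisc_integralClosure]
    exact hKi i
  · intro σ m hm μ hμ φ hφ
    -- a uniform bound for the conjugates of `x0`
    set B : ℝ := ∑ ψ : F →+* ℂ, ‖ψ x0‖ with hB
    let f : ∀ i, F →+* K i := fun i => (hFK i).some
    have hbound : ∀ i j, |σ i j (f i x0)| ≤ B := by
      intro i j
      have h1 : |σ i j (f i x0)| = ‖(Complex.ofRealHom.comp ((σ i j).comp (f i))) x0‖ := by
        simp
      rw [h1, hB]
      exact Finset.single_le_sum (f := fun ψ : F →+* ℂ => ‖ψ x0‖) (fun _ _ => norm_nonneg _)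
        (Finset.mem_univ _)
    refine not_vague_of_bounded (B := B) (by omega) hm (Eventually.frequently ?_)
    refine Eventually.of_forall fun i => ?_
    have hint : IsIntegral ℤ (f (φ i) x0) :=
      map_isIntegral_int (f (φ i)) hx0
    refine ⟨fun j => σ (φ i) j (f (φ i) x0), hbound (φ i), ?_,
      (hμ (φ i)).compl_stableX hint⟩
    by_contra hc
    push Not at hc
    obtain ⟨k, hk⟩ := isInt_of_const (σ (φ i)) hint hc
    apply hx0n
    refine ⟨k, (f (φ i)).injective ?_⟩
    rw [hk]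
    simp

end Vale.Agent.P007
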