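import Vale.Agent.P007.Top

namespace Vale.Agent.P007

open MeasureTheory Topology Matrix Filter

variable {n : ℕ} {K : Type*} [Field K]

lemma row_mem_latticeSet (g : G n) (i : Fin n) :
    (fun j => (g : Matrix (Fin n) (Fin n) ℝ) i j) ∈ latticeSet g := by
  refine ⟨Pi.single i 1, ?_⟩
  funext j
  simp only [Matrix.vecMul, dotProduct]
  rw [Finset.sum_eq_single i]
  · simp
  · intro b _ hb
    simp [hb]
  · simp

/-- If the lattice of `g` is `c σ(I) w` with `I` an `O`-module, it is stable under `σ(β)` for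
`β ∈ O`. -/
lemma mem_stableSet_of_packet {O : Subalgebra ℤ K} {σ : Fin n ≃ (K →+* ℝ)}
    {I : Submodule ℤ K} (hI : ∀ a ∈ O, ∀ x ∈ I, a * x ∈ I) {w : Fin n → ℤˣ} {c : ℝ} {g : G n}
    (hg : latticeSet g = {v | ∃ a ∈ I, v = fun j => c * σ j a * ((w j : ℤ) : ℝ)})
    {β : K} (hβ : β ∈ O) : g ∈ stableSet (Matrix.diagonal (fun j => σ j β)) := by
  have h1 : ∀ i : Fin n, ∃ k : Fin n → ℤ, (fun j => (g : Matrix (Fin n) (Fin n) ℝ) i j * σ j β) =
      Matrix.vecMul (fun i => (k i : ℝ)) (g : Matrix (Fin n) (Fin n) ℝ) := by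
    intro i
    have h2 := row_mem_latticeSet g i
    rw [hg] at h2
    obtain ⟨a, ha, hav⟩ := h2
    have h3 : (fun j => (g : Matrix (Fin n) (Fin n) ℝ) i j * σ j β) ∈ latticeSet g := by
      rw [hg]
      refine ⟨β * a, hI β hβ a ha, ?_⟩
      funext j
      have h5 : (g : Matrix (Fin n) (Fin n) ℝ) i j = c * σ j a * ((w j : ℤ) : ℝ) := congrFun hav j
      rw [h5, map_mul]
      ring
    exact h3
  choose N hN using h1
  refine ⟨Matrix.of N, ?_⟩
  ext i j
  have := congrFun (hN i) j
  rw [Matrix.mul_diagonal, this]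
  simp [Matrix.vecMul, dotProduct, Matrix.mul_apply]

lemma stableSet_mul_diag {d : Fin n → ℝ} {g : G n} (hg : g ∈ stableSet (Matrix.diagonal d))
    (u : Fin (n - 1) → ℝ) : g * aOf n u ∈ stableSet (Matrix.diagonal d) := by
  obtain ⟨N, hN⟩ := hg
  refine ⟨N, ?_⟩
  have h1 : ((g * aOf n u : G n) : Matrix (Fin n) (Fin n) ℝ) =
    (g : Matrix (Fin n) (Fin n) ℝ) * Matrix.diagonal (diagEntries n u) := rfl
  rw [h1]
  have h2 : Matrix.diagonal (diagEntries n u) * Matrix.diagonal d =
      Matrix.diagonal d * Matrix.diagonal (diagEntries n u) := by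
    rw [Matrix.diagonal_mul_diagonal, Matrix.diagonal_mul_diagonal]
    congr 1; funext j; ring
  rw [mul_assoc, h2, ← mul_assoc, hN, mul_assoc]

/-- every orbit of the packet lies in the closed set of `σ(β)`-stable lattices. -/
lemma packet_subset_stableX {O : Subalgebra ℤ K} {σ : Fin n ≃ (K →+* ℝ)} {S : Set (X n)}
    (hS : S ∈ packet O σ) {β : K} (hβ : β ∈ O) :
    S ⊆ stableX (Matrix.diagonal (fun j => σ j β)) := by
  obtain ⟨I, hI, w, c, g, hc, hg, rfl⟩ := hS
  rintro x ⟨u, rfl⟩
  exact ⟨g * aOf n u, stableSet_mul_diag (mem_stableSet_of_packet hI.isFrac.2 hg hβ) u, rfl⟩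

lemma continuous_aOf (n : ℕ) : Continuous (aOf n) := by
  refine Continuous.subtype_mk ?_ _
  refine Continuous.matrix_diagonal ?_
  refine continuous_pi fun j => ?_
  unfold diagEntries
  split_ifs with h
  · exact Real.continuous_exp.comp (continuous_apply _)
  · exact Real.continuous_exp.comp
      ((continuous_finsetSum _ fun i _ => continuous_apply i).neg)

lemma continuous_act_aOf (x : X n) : Continuous (fun u => act (aOf n u) x) := by
  obtain ⟨g, rfl⟩ := surjective_mkX x
  exact continuous_mkX.comp (continuous_const.mul (continuous_aOf n))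

/-- the orbit measure of `S` gives no mass to an open set disjoint from `S`. -/
lemma orbitMeasure_apply_eq_zero {S U : Set (X n)} (hU : IsOpen U) (hd : Disjoint U S) :
    orbitMeasure S U = 0 := by
  classical
  unfold orbitMeasure
  split_ifs with h
  · have h2 : S = orbit h.choose.1 := h.choose_spec.1
    unfold paramMeasure
    rw [Measure.map_apply (continuous_act_aOf _).measurable hU.measurableSet]
    have : (fun u => act (aOf n u) h.choose.1) ⁻¹' U = ∅ := by
      rw [Set.eq_empty_iff_forall_notMem]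
      intro u hu
      have h3 : act (aOf n u) h.choose.1 ∈ orbit h.choose.1 := ⟨u, rfl⟩
      have h1 : act (aOf n u) h.choose.1 ∈ S := (Set.ext_iff.mp h2 _).mpr h3
      exact Set.disjoint_left.mp hd hu h1
    rw [this, measure_empty]
  · simp

lemma packetMeasure_compl_stableX (O : Subalgebra ℤ K) (σ : Fin n ≃ (K →+* ℝ)) {β : K}
    (hβ : β ∈ O) : packetMeasure O σ (stableX (Matrix.diagonal (fun j => σ j β)))ᶜ = 0 := by
  have hopen : IsOpen (stableX (Matrix.diagonal (fun j => σ j β)))ᶜ :=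
    (isClosed_stableX _).isOpen_compl
  have h1 : packetSum O σ (stableX (Matrix.diagonal (fun j => σ j β)))ᶜ = 0 := by
    unfold packetSum
    rw [Measure.sum_apply _ hopen.measurableSet]
    rw [ENNReal.tsum_eq_zero]
    rintro ⟨S, hS⟩
    refine orbitMeasure_apply_eq_zero hopen ?_
    exact Set.disjoint_compl_left_iff_subset.mpr (packet_subset_stableX hS hβ)
  unfold packetMeasure
  rw [Measure.smul_apply, h1]
  simp

lemma carried_compl_stableX {O : Subalgebra ℤ K} {σ : Fin n ≃ (K →+* ℝ)} {μ : Measure (X n)}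
    (hμ : μ (⋃₀ packet O σ)ᶜ = 0) {β : K}
    (hβ : β ∈ O) : μ (stableX (Matrix.diagonal (fun j => σ j β)))ᶜ = 0 := by
  refine measure_mono_null ?_ hμ
  refine Set.compl_subset_compl.mpr ?_
  exact Set.sUnion_subset fun S hS => packet_subset_stableX hS hβ

end Vale.Agent.P007
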