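import Vale.Agent.P007.Defs

namespace Vale.Agent.P007

open MeasureTheory Topology Matrix Filter

variable {n : ℕ}

instance : DiscreteTopology (Gam n) :=
  inferInstanceAs (DiscreteTopology
    (Matrix.SpecialLinearGroup.map (n := Fin n) (Int.castRingHom ℝ)).range)

instance : LocallyCompactSpace (G n) :=
  haveI : LocallyCompactSpace (Matrix (Fin n) (Fin n) ℝ) :=
    inferInstanceAs (LocallyCompactSpace (Fin n → Fin n → ℝ))
  (Matrix.SpecialLinearGroup.isClosedEmbedding_val (n := Fin n) (R := ℝ)).locallyCompactSpace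

instance : SecondCountableTopology (G n) :=
  haveI : SecondCountableTopology (Matrix (Fin n) (Fin n) ℝ) :=
    inferInstanceAs (SecondCountableTopology (Fin n → Fin n → ℝ))
  (Matrix.SpecialLinearGroup.isClosedEmbedding_val (n := Fin n)
    (R := ℝ)).isEmbedding.secondCountableTopology

instance : T2Space (G n) :=
  (Matrix.SpecialLinearGroup.isClosedEmbedding_val (n := Fin n) (R := ℝ)).isEmbedding.t2Space

instance : ProperlyDiscontinuousSMul (Gam n) (G n) :=
  Subgroup.properlyDiscontinuousSMul_of_tendsto_cofinite _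
    (Subgroup.tendsto_coe_cofinite_of_discrete _
      (isDiscrete_iff_discreteTopology.mpr (inferInstanceAs (DiscreteTopology (Gam n)))))

instance : T2Space (X n) :=
  inferInstanceAs (T2Space (Quotient (MulAction.orbitRel (Gam n) (G n))))

lemma continuous_mkX : Continuous (mkX : G n → X n) := continuous_quotient_mk'

lemma isOpenMap_mkX : IsOpenMap (mkX : G n → X n) :=
  isOpenMap_quotient_mk'_mul (Γ := Gam n) (T := G n)

lemma surjective_mkX : Function.Surjective (mkX : G n → X n) := Quotient.mk_surjective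

lemma isOpenQuotientMap_mkX : IsOpenQuotientMap (mkX : G n → X n) :=
  ⟨surjective_mkX, continuous_mkX, isOpenMap_mkX⟩

instance : LocallyCompactSpace (X n) := isOpenQuotientMap_mkX.locallyCompactSpace

lemma mkX_eq_iff {g h : G n} : mkX g = mkX h ↔ ∃ γ : Matrix.SpecialLinearGroup (Fin n) ℤ,
    h = (Matrix.SpecialLinearGroup.map (Int.castRingHom ℝ) γ) * g := by
  have h0 : mkX g = mkX h ↔ h * g⁻¹ ∈ Gam n := by
    rw [← QuotientGroup.rightRel_apply]
    exact ⟨fun h => Quotient.exact h, fun h => Quotient.sound h⟩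
  rw [h0]
  constructor
  · rintro ⟨γ, hγ⟩
    exact ⟨γ, by rw [hγ]; simp⟩
  · rintro ⟨γ, hγ⟩
    exact ⟨γ, by rw [hγ]; simp⟩

lemma continuous_act (g : G n) : Continuous (act g : X n → X n) := by
  rw [isOpenQuotientMap_mkX.isQuotientMap.continuous_iff]
  exact continuous_mkX.comp (continuous_mul_const g)

/-- A nonempty open set has positive measure for an invariant probability. -/
lemma measure_open_pos {m : Measure (X n)} (hm : IsInvariantProb m) {U : Set (X n)}
    (hU : IsOpen U) (hne : U.Nonempty) : m U ≠ 0 := by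
  intro h0
  have := hm.prob
  obtain ⟨x0, hx0⟩ := hne
  -- translates of `U`
  have hT : ∀ g : G n, m ((act g) ⁻¹' U) = 0 := by
    intro g
    have h1 := hm.inv g
    have h2 : (m.map (act g)) U = m ((act g) ⁻¹' U) :=
      Measure.map_apply (continuous_act g).measurable hU.measurableSet
    rw [← h2, h1, h0]
  obtain ⟨D, hDc, hDd⟩ := TopologicalSpace.exists_countable_dense (G n)
  have hcov : (Set.univ : Set (X n)) ⊆ ⋃ g ∈ D, (act g) ⁻¹' U := by
    intro x _
    obtain ⟨h, rfl⟩ := surjective_mkX x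
    obtain ⟨h0, rfl⟩ := surjective_mkX x0
    have hopen : IsOpen {g : G n | mkX (h * g) ∈ U} :=
      hU.preimage (continuous_mkX.comp (continuous_const_mul h))
    have hne : {g : G n | mkX (h * g) ∈ U}.Nonempty := ⟨h⁻¹ * h0, by simpa using hx0⟩
    obtain ⟨g, hg, hgD⟩ := hDd.inter_open_nonempty _ hopen hne
    simp only [Set.mem_iUnion]
    exact ⟨g, hgD, hg⟩
  have : m (⋃ g ∈ D, (act g) ⁻¹' U) = 0 :=
    (measure_biUnion_null_iff hDc).mpr (fun g _ => hT g)
  have h1 : m Set.univ = 0 := measure_mono_null hcov this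
  simp at h1

/-- `E_D`: the set of `g` such that the lattice `ℤ^n g` is stable under the matrix `D`. -/
def stableSet (D : Matrix (Fin n) (Fin n) ℝ) : Set (G n) :=
  {g | ∃ N : Matrix (Fin n) (Fin n) ℤ, (g : Matrix (Fin n) (Fin n) ℝ) * D =
    N.map (fun k : ℤ => (k : ℝ)) * (g : Matrix (Fin n) (Fin n) ℝ)}

lemma mem_stableSet_iff (D : Matrix (Fin n) (Fin n) ℝ) (g : G n) : g ∈ stableSet D ↔
    (g : Matrix (Fin n) (Fin n) ℝ) * D * ((g⁻¹ : G n) : Matrix (Fin n) (Fin n) ℝ) ∈
      Set.range (fun N : Matrix (Fin n) (Fin n) ℤ => N.map (fun k : ℤ => (k : ℝ))) := by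
  have h1 : (g : Matrix (Fin n) (Fin n) ℝ) * ((g⁻¹ : G n) : Matrix (Fin n) (Fin n) ℝ) = 1 := by
    rw [← Matrix.SpecialLinearGroup.coe_mul]; simp
  have h2 : ((g⁻¹ : G n) : Matrix (Fin n) (Fin n) ℝ) * (g : Matrix (Fin n) (Fin n) ℝ) = 1 := by
    rw [← Matrix.SpecialLinearGroup.coe_mul]; simp
  constructor
  · rintro ⟨N, hN⟩
    refine ⟨N, ?_⟩
    simp only
    rw [hN, mul_assoc, h1, mul_one]
  · rintro ⟨N, hN⟩
    refine ⟨N, ?_⟩
    simp only at hN
    rw [hN, mul_assoc, h2, mul_one]

lemma isClosed_range_intMat :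
    IsClosed (Set.range (fun N : Matrix (Fin n) (Fin n) ℤ => N.map (fun k : ℤ => (k : ℝ)))) := by
  have : Set.range (fun N : Matrix (Fin n) (Fin n) ℤ => N.map (fun k : ℤ => (k : ℝ))) =
      ⋂ i, ⋂ j, {M : Matrix (Fin n) (Fin n) ℝ | M i j ∈ Set.range (fun k : ℤ => (k : ℝ))} := by
    ext M
    simp only [Set.mem_range, Set.mem_iInter]
    constructor
    · rintro ⟨N, rfl⟩ i j
      exact ⟨N i j, rfl⟩
    · intro h
      choose N hN using h
      refine ⟨Matrix.of N, ?_⟩
      ext i j
      simpa using hN i j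
  rw [this]
  refine isClosed_iInter fun i => isClosed_iInter fun j => ?_
  exact Int.isClosedEmbedding_coe_real.isClosed_range.preimage
    ((continuous_id.matrix_elem i j))

lemma isClosed_stableSet (D : Matrix (Fin n) (Fin n) ℝ) : IsClosed (stableSet D) := by
  have : stableSet D = (fun g : G n => (g : Matrix (Fin n) (Fin n) ℝ) * D *
      ((g⁻¹ : G n) : Matrix (Fin n) (Fin n) ℝ)) ⁻¹'
      Set.range (fun N : Matrix (Fin n) (Fin n) ℤ => N.map (fun k : ℤ => (k : ℝ))) := by
    ext g; exact mem_stableSet_iff D g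
  rw [this]
  refine isClosed_range_intMat.preimage ?_
  have h1 : Continuous (fun g : G n => (g : Matrix (Fin n) (Fin n) ℝ)) := continuous_subtype_val
  exact (h1.mul continuous_const).mul (h1.comp continuous_inv)

lemma stableSet_gamma_mul {D : Matrix (Fin n) (Fin n) ℝ} {g : G n} (hg : g ∈ stableSet D)
    (γ : Matrix.SpecialLinearGroup (Fin n) ℤ) :
    (Matrix.SpecialLinearGroup.map (Int.castRingHom ℝ) γ) * g ∈ stableSet D := by
  obtain ⟨N, hN⟩ := hg
  refine ⟨(γ : Matrix (Fin n) (Fin n) ℤ) * N * ((γ⁻¹ : Matrix.SpecialLinearGroup (Fin n) ℤ) :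
    Matrix (Fin n) (Fin n) ℤ), ?_⟩
  have hm : ∀ A : Matrix (Fin n) (Fin n) ℤ, A.map (fun k : ℤ => (k : ℝ)) =
      (Int.castRingHom ℝ).mapMatrix A := fun A => rfl
  rw [hm] at hN ⊢
  rw [map_mul, map_mul]
  have h3 : ((Matrix.SpecialLinearGroup.map (Int.castRingHom ℝ) γ * g : G n) :
      Matrix (Fin n) (Fin n) ℝ) = (Int.castRingHom ℝ).mapMatrix (γ : Matrix (Fin n) (Fin n) ℤ) *
        (g : Matrix (Fin n) (Fin n) ℝ) := rfl
  have h4 : (Int.castRingHom ℝ).mapMatrix ((γ⁻¹ : Matrix.SpecialLinearGroup (Fin n) ℤ) :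
      Matrix (Fin n) (Fin n) ℤ) * (Int.castRingHom ℝ).mapMatrix (γ : Matrix (Fin n) (Fin n) ℤ)
      = 1 := by
    rw [← map_mul, ← Matrix.SpecialLinearGroup.coe_mul]; simp
  rw [h3]
  calc (Int.castRingHom ℝ).mapMatrix (γ : Matrix (Fin n) (Fin n) ℤ) *
        (g : Matrix (Fin n) (Fin n) ℝ) * D
      = (Int.castRingHom ℝ).mapMatrix (γ : Matrix (Fin n) (Fin n) ℤ) *
        ((Int.castRingHom ℝ).mapMatrix N * (g : Matrix (Fin n) (Fin n) ℝ)) := by
          rw [mul_assoc, hN]
    _ = (Int.castRingHom ℝ).mapMatrix (γ : Matrix (Fin n) (Fin n) ℤ) *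
        ((Int.castRingHom ℝ).mapMatrix N * (1 * (g : Matrix (Fin n) (Fin n) ℝ))) := by
          rw [one_mul]
    _ = _ := by rw [← h4]; simp only [mul_assoc]

/-- The closed subset of `X_n` of lattices stable under `D`. -/
def stableX (D : Matrix (Fin n) (Fin n) ℝ) : Set (X n) := mkX '' stableSet D

lemma preimage_stableX (D : Matrix (Fin n) (Fin n) ℝ) : mkX ⁻¹' (stableX D) = stableSet D := by
  ext g
  constructor
  · rintro ⟨h, hh, hhg⟩
    obtain ⟨γ, hγ⟩ := mkX_eq_iff.mp hhg
    rw [hγ]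
    exact stableSet_gamma_mul hh γ
  · intro hg
    exact ⟨g, hg, rfl⟩

lemma isClosed_stableX (D : Matrix (Fin n) (Fin n) ℝ) : IsClosed (stableX D) := by
  rw [← isOpenQuotientMap_mkX.isQuotientMap.isClosed_preimage, preimage_stableX]
  exact isClosed_stableSet D

/-- Stability under a non-scalar diagonal matrix is a proper condition. -/
lemma exists_not_mem_stableSet {d : Fin n → ℝ} {i j : Fin n} (hij : d i ≠ d j) :
    ∃ g : G n, g ∉ stableSet (Matrix.diagonal d) := by
  have hne : i ≠ j := fun h => hij (by rw [h])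
  have hdd : d j - d i ≠ 0 := sub_ne_zero.mpr (Ne.symm hij)
  refine ⟨⟨Matrix.transvection i j ((1/2) / (d j - d i)), by
    rw [Matrix.det_transvection_of_ne _ _ hne]⟩, ?_⟩
  rintro ⟨N, hN⟩
  simp only at hN
  -- compare `(i, j)` entries, after multiplying out
  have key : ∀ a b : Fin n, (Matrix.transvection i j ((1/2) / (d j - d i)) *
      Matrix.diagonal d) a b = (N.map (fun k : ℤ => (k : ℝ)) *
      Matrix.transvection i j ((1/2) / (d j - d i))) a b := by
    intro a b; rw [hN]
  have h1 := key i j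
  have h2 := key i i
  simp only [Matrix.transvection, Matrix.add_mul, Matrix.mul_add, Matrix.one_mul, Matrix.mul_one,
    Matrix.add_apply] at h1 h2
  rw [Matrix.diagonal_apply_ne _ hne] at h1
  rw [Matrix.diagonal_apply_eq] at h2
  simp [Matrix.single_apply, Matrix.mul_apply, Matrix.diagonal_apply, hne.symm,
    Matrix.map_apply] at h1 h2
  rw [← h2] at h1
  have h3 : ((N i j : ℤ) : ℝ) = 2⁻¹ := by
    have : 2⁻¹ / (d j - d i) * d j - d i * (2⁻¹ / (d j - d i)) = 2⁻¹ := by
      field_simp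
    linarith
  have h4 : (2 : ℝ) * (N i j : ℤ) = 1 := by rw [h3]; norm_num
  have h5 : (2 * N i j : ℤ) = 1 := by exact_mod_cast h4
  omega

/-- If probability measures `μ_i` (for infinitely many `i`) give no mass to the complement of
`stableX (diagonal d)` with `d` non-constant, then `μ_i` does not converge to `m`. -/
lemma not_vague_of_frequently {m : Measure (X n)} (hm : IsInvariantProb m)
    {μ : ℕ → Measure (X n)} {d : Fin n → ℝ} {a b : Fin n} (hab : d a ≠ d b)
    (hfreq : ∃ᶠ i in atTop, μ i (stableX (Matrix.diagonal d))ᶜ = 0) :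
    ¬ VagueTendsto μ m := by
  intro hconv
  have := hm.prob
  obtain ⟨g, hg⟩ := exists_not_mem_stableSet hab
  set Z := stableX (Matrix.diagonal d) with hZ
  have hgZ : mkX g ∉ Z := by
    intro h
    have : g ∈ mkX ⁻¹' Z := h
    rw [hZ, preimage_stableX] at this
    exact hg this
  obtain ⟨f, hf1, hf0, hfc, hf01⟩ := exists_continuous_one_zero_of_isCompact
    (s := {mkX g}) (t := Z) isCompact_singleton (isClosed_stableX _)
    (Set.disjoint_singleton_left.mpr hgZ)
  have hlim := hconv f f.continuous hfc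
  -- the limit is zero
  have hzero : ∃ᶠ i in atTop, ∫ x, f x ∂(μ i) = 0 := by
    refine hfreq.mono fun i hi => ?_
    have : (fun x => f x) =ᵐ[μ i] fun _ => (0 : ℝ) := by
      rw [Filter.EventuallyEq, ae_iff]
      refine measure_mono_null ?_ hi
      intro x hx hxZ
      exact hx (hf0 hxZ)
    rw [integral_congr_ae this]
    simp
  have hm0 : ∫ x, f x ∂m = 0 := by
    by_contra hne
    have hev := hlim.eventually_ne hne
    obtain ⟨i, hi1, hi2⟩ := (hzero.and_eventually hev).exists
    exact hi2 hi1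
  -- the limit is positive
  have hint : Integrable (fun x => f x) m := f.continuous.integrable_of_hasCompactSupport hfc
  have hpos : 0 < ∫ x, f x ∂m := by
    rw [integral_pos_iff_support_of_nonneg (fun x => (hf01 x).1) hint]
    have hopen : IsOpen (Function.support f) := f.continuous.isOpen_support
    refine pos_iff_ne_zero.mpr (measure_open_pos hm hopen ⟨mkX g, ?_⟩)
    have h1 := hf1 (Set.mem_singleton (mkX g))
    simp only [Pi.one_apply] at h1
    simp [h1]
  exact (ne_of_gt hpos) hm0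

end Vale.Agent.P007
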